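import Crest.Statements.S0109
import Crest.Agent.OT.Potential
import Crest.Agent.OT.FBound
import Crest.Agent.OT.Path
import Crest.Agent.OT.Disc
import Crest.Agent.OT.Key
import Crest.Agent.OT.Final

set_option autoImplicit false
open MeasureTheory
open scoped ENNReal NNReal
open Crest.AnalysisR.OT
open Crest Crest.AnalysisR Crest.AnalysisR.OT

namespace Crest.Agent.S0109

/-- Fix d ≥ 2, a compact convex K ⊆ ℝᵈ with nonempty interior, ρ the uniform probability measure on K, and a nonempty compact Y ⊆ ℝᵈ. There is a constant C such that for all probability measures μ, ν carried by Y, all quadratic optimal transport maps Tμ from ρ to μ and Tν from ρ to ν, and every coupling π of μ and ν, ∫ ‖Tμ - Tν‖² dρ ≤ C · (∫ ‖y - z‖² dπ)^(1/3). With the best coupling: the L²(ρ) distance of the maps is at most √C times the cube root of the Wasserstein-2 distance of the targets. -/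
theorem result
    (d : ℕ) (hd : 2 ≤ d) (K : Set (EuclideanSpace ℝ (Fin d))) (hKc : IsCompact K) (hKv : Convex ℝ K)
    (hKi : (interior K).Nonempty) (Y : Set (EuclideanSpace ℝ (Fin d))) (hYc : IsCompact Y) (hYn : Y.Nonempty) :
    ∃ C : ℝ≥0, ∀ μ ν : Measure (EuclideanSpace ℝ (Fin d)), IsProbabilityOn Y μ → IsProbabilityOn Y ν →
      ∀ Tμ Tν : EuclideanSpace ℝ (Fin d) → EuclideanSpace ℝ (Fin d),
        IsOptimalMap (uniformProbOn K) μ Tμ → IsOptimalMap (uniformProbOn K) ν Tν →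
        ∀ π : Measure (EuclideanSpace ℝ (Fin d) × EuclideanSpace ℝ (Fin d)), IsPairCoupling μ ν π →
          ∫⁻ x, ‖Tμ x - Tν x‖ₑ ^ 2 ∂(uniformProbOn K) ≤ C * quadCost π ^ (1 / 3 : ℝ) := by
  classical
  obtain ⟨x₀, hx₀⟩ := hKi
  obtain ⟨ρ0, hρ0, hball⟩ := Metric.isOpen_iff.1 isOpen_interior x₀ hx₀
  obtain ⟨r, hr⟩ := hKc.isBounded.exists_norm_le
  obtain ⟨R0, hR0⟩ := hYc.isBounded.exists_norm_le
  have hRnn : (0 : ℝ) ≤ max R0 0 := le_max_right _ _
  have hK : OT.Body K x₀ (ρ0 / 2) r :=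
    ⟨hKc, hKv, by positivity,
      (Metric.closedBall_subset_ball (by linarith)).trans (hball.trans interior_subset), hr⟩
  haveI := hK.isProbabilityMeasure
  obtain ⟨C, hC, hF⟩ := OT.exists_FBound hK
  have hP := OT.pathBound_of_FBound hK C hC hF
  obtain ⟨C', hC', hfin⟩ := OT.final_bound hK C hC (max R0 0) hRnn
  refine ⟨Real.toNNReal (C' + 1), ?_⟩
  intro μ ν hμ hν Tμ Tν hTμ hTν π hπ
  by_cases htop : quadCost π = ⊤
  · rw [htop, ENNReal.top_rpow_of_pos (by norm_num), ENNReal.mul_top]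
    · exact le_top
    · have h1 : 0 < Real.toNNReal (C' + 1) := Real.toNNReal_pos.2 (by linarith)
      exact ENNReal.coe_ne_zero.2 h1.ne'
  have hεnn : 0 ≤ Real.sqrt (quadCost π).toReal := Real.sqrt_nonneg _
  have hε2 : Real.sqrt (quadCost π).toReal ^ 2 = (quadCost π).toReal :=
    Real.sq_sqrt ENNReal.toReal_nonneg
  have hcost : quadCost π ≤ ENNReal.ofReal (Real.sqrt (quadCost π).toReal ^ 2) := by
    rw [hε2, ENNReal.ofReal_toReal htop]
  have hYR : ∀ y ∈ Y, ‖y‖ ≤ max R0 0 := fun y hy => (hR0 y hy).trans (le_max_left _ _)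
  have hb0 := OT.ae_norm_le_of_map hK Y _ hYR hYc.measurableSet μ hμ Tμ hTμ.1 hTμ.2.1
  have hb1 := OT.ae_norm_le_of_map hK Y _ hYR hYc.measurableSet ν hν Tν hTν.1 hTν.2.1
  obtain ⟨φ0, hφ0⟩ := OT.exists_potential hK _ hRnn μ Tμ hTμ hb0
  obtain ⟨φ1, hφ1⟩ := OT.exists_potential hK _ hRnn ν Tν hTν hb1
  have hD := OT.discretizable (by omega) hK Y hYc μ ν hμ hν Tμ Tν hTμ.1 hTν.1 hTμ.2.1 hTν.2.1
    π hπ _ hεnn hcost
  have hkey := OT.keyIneq hK C hC hP _ Tμ Tν hTμ.1 hTν.1 hb0 hb1 φ0 φ1 hφ0 hφ1 _ hεnn hD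
  have hmain := hfin Tμ Tν φ0 φ1 _ hTμ.1 hTν.1 hb0 hb1 hφ0 hφ1 hεnn hkey
  rw [hε2] at hmain
  have hmeas : Measurable fun x => ‖Tμ x - Tν x‖ ^ 2 := ((hTμ.1.sub hTν.1).norm).pow_const 2
  have hint : Integrable (fun x => ‖Tμ x - Tν x‖ ^ 2) (uniformProbOn K) := by
    refine hK.integrable_of_bdd _ hmeas.aestronglyMeasurable ((2 * max R0 0) ^ 2) ?_
    filter_upwards [hb0, hb1] with x h0 h1
    have h2 : ‖Tμ x - Tν x‖ ≤ 2 * max R0 0 := by
      calc ‖Tμ x - Tν x‖ ≤ ‖Tμ x‖ + ‖Tν x‖ := norm_sub_le _ _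
        _ ≤ 2 * max R0 0 := by linarith
    rw [Real.norm_of_nonneg (by positivity)]
    exact pow_le_pow_left₀ (norm_nonneg _) h2 2
  have hconv : ∫⁻ x, ‖Tμ x - Tν x‖ₑ ^ 2 ∂(uniformProbOn K)
      = ENNReal.ofReal (∫ x, ‖Tμ x - Tν x‖ ^ 2 ∂(uniformProbOn K)) := by
    rw [ofReal_integral_eq_lintegral_ofReal hint (Filter.Eventually.of_forall fun x => by positivity)]
    refine lintegral_congr fun x => ?_
    rw [ENNReal.ofReal_pow (norm_nonneg _), ofReal_norm]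
  rw [hconv]
  have hq : quadCost π ^ (1 / 3 : ℝ) = ENNReal.ofReal ((quadCost π).toReal ^ (1 / 3 : ℝ)) := by
    rw [← ENNReal.ofReal_rpow_of_nonneg ENNReal.toReal_nonneg (by norm_num),
      ENNReal.ofReal_toReal htop]
  have hCC : ((Real.toNNReal (C' + 1) : ℝ≥0) : ℝ≥0∞) = ENNReal.ofReal (C' + 1) := rfl
  rw [hq, hCC, ← ENNReal.ofReal_mul (by positivity)]
  refine ENNReal.ofReal_le_ofReal (hmain.trans ?_)
  have : 0 ≤ (quadCost π).toReal ^ (1 / 3 : ℝ) := Real.rpow_nonneg ENNReal.toReal_nonneg _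
  nlinarith

end Crest.Agent.S0109
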