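import Crest.Statements.S0110
import Crest.Agent.OT.Sharp.Final

set_option autoImplicit false
open MeasureTheory
open scoped ENNReal NNReal
open Crest.AnalysisR.OT
open Crest Crest.AnalysisR Crest.AnalysisR.OT

namespace Crest.Agent.S0110

open Crest.Agent.OT.Sharp in
/-- The exponent one third is optimal, even on the cube with three-atom targets: for d ≥ 2, ρ the uniform probability measure on the cube of points of ℝᵈ with all coordinates in [-1, 1], every α > 1/3 and every C ≥ 0, there are three-atomic probability measures μ, ν on that cube, each admitting a quadratic optimal transport map from ρ, such that for all such optimal maps Tμ, Tν some coupling π of μ, ν has C · (∫ ‖y - z‖² dπ)^α < ∫ ‖Tμ - Tν‖² dρ. Hence ‖Tμ - Tν‖_{L²(ρ)} > √C · W₂(μ, ν)^α. -/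
theorem result
    (d : ℕ) (hd : 2 ≤ d) (α : ℝ) (hα : 1 / 3 < α) (C : ℝ≥0) :
    ∃ μ ν : Measure (EuclideanSpace ℝ (Fin d)),
      IsProbabilityOn {x : EuclideanSpace ℝ (Fin d) | ∀ i, |x i| ≤ 1} μ ∧
      IsProbabilityOn {x : EuclideanSpace ℝ (Fin d) | ∀ i, |x i| ≤ 1} ν ∧
      IsThreeAtomic μ ∧ IsThreeAtomic ν ∧
      (∃ T, IsOptimalMap (uniformProbOn {x : EuclideanSpace ℝ (Fin d) | ∀ i, |x i| ≤ 1}) μ T) ∧
      (∃ T, IsOptimalMap (uniformProbOn {x : EuclideanSpace ℝ (Fin d) | ∀ i, |x i| ≤ 1}) ν T) ∧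
      ∀ Tμ Tν : EuclideanSpace ℝ (Fin d) → EuclideanSpace ℝ (Fin d),
        IsOptimalMap (uniformProbOn {x : EuclideanSpace ℝ (Fin d) | ∀ i, |x i| ≤ 1}) μ Tμ →
        IsOptimalMap (uniformProbOn {x : EuclideanSpace ℝ (Fin d) | ∀ i, |x i| ≤ 1}) ν Tν →
        ∃ π : Measure (EuclideanSpace ℝ (Fin d) × EuclideanSpace ℝ (Fin d)), IsPairCoupling μ ν π ∧
          (C : ℝ≥0∞) * quadCost π ^ α < ∫⁻ x, ‖Tμ x - Tν x‖ₑ ^ 2 ∂(uniformProbOn {x : EuclideanSpace ℝ (Fin d) | ∀ i, |x i| ≤ 1}) := by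
  obtain ⟨c, hc0, hc, hC⟩ := exists_c α hα (C : ℝ)
  have hα0 : 0 ≤ α := by linarith
  let i0 : Fin d := ⟨0, by omega⟩
  let i1 : Fin d := ⟨1, by omega⟩
  have h01 : i0 ≠ i1 := by
    intro h
    have := congrArg Fin.val h
    simp [i0, i1] at this
  have habs : |c| ≤ c := (abs_of_pos hc0).le
  have habs' : |(-c)| ≤ c := by rw [abs_neg]; exact habs
  have hcc : c ^ 2 + 2 * c ≤ 1 := by nlinarith
  have hcc' : (-c) ^ 2 + 2 * c ≤ 1 := by nlinarith
  refine ⟨(uniformProbOn (Q d)).map (TT i0 i1 c (-c)), (uniformProbOn (Q d)).map (TT i0 i1 c c),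
    isProbabilityOn_map_TT c (-c) (habs'.trans (by linarith)),
    isProbabilityOn_map_TT c c (habs.trans (by linarith)),
    isThreeAtomic_map_TT h01 c (-c) hc0 hc habs', isThreeAtomic_map_TT h01 c c hc0 hc habs,
    ⟨_, isOptimalMap_TT h01 c (-c) hc0.le hcc'⟩, ⟨_, isOptimalMap_TT h01 c c hc0.le hcc⟩, ?_⟩
  intro Tμ Tν hμ hν
  refine ⟨cpl i0 i1 c, isPairCoupling_cpl h01 c, ?_⟩
  have h1 : (C : ℝ≥0∞) * quadCost (cpl i0 i1 c) ^ α
      ≤ (C : ℝ≥0∞) * ENNReal.ofReal (8 * c ^ 3) ^ α := by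
    gcongr
    exact quadCost_cpl_le h01 c hc0 hc
  have h2 : (C : ℝ≥0∞) * ENNReal.ofReal (8 * c ^ 3) ^ α < ENNReal.ofReal (c / 16) := by
    rw [ENNReal.ofReal_rpow_of_nonneg (by positivity) hα0, ← ENNReal.ofReal_coe_nnreal,
      ← ENNReal.ofReal_mul C.coe_nonneg]
    exact (ENNReal.ofReal_lt_ofReal_iff (by positivity)).2 hC
  exact lt_of_le_of_lt h1 (lt_of_lt_of_le h2 (lower_bound h01 c hc0 hc Tμ Tν hμ hν))

end Crest.Agent.S0110
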