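import Crest.Statements.S0223
-- import your own Crest.Agent.* helpers here

set_option autoImplicit false
open Crest Crest.ProbabilityR

namespace Crest.Agent.S0223

open Crest.ProbabilityR.Shuffle

theorem mod_of_lt_two_mul {m x : ℕ} (hx : x < 2 * m) :
    x % m = if m ≤ x then x - m else x := by
  split_ifs with h
  · rw [Nat.mod_eq_sub_mod h, Nat.mod_eq_of_lt (by omega)]
  · exact Nat.mod_eq_of_lt (by omega)

theorem stepPos_injective (m : ℕ) (c : Fin m → Bool) : Function.Injective (stepPos m c) := by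
  intro x y hxy
  have hx := x.isLt
  have hy := y.isLt
  have h := congrArg Fin.val hxy
  simp only [stepPos] at h
  have hmod : x.val % m = y.val % m := by
    split_ifs at h <;> omega
  have hc : c ⟨x.val % m, Nat.mod_lt _ (by omega)⟩ = c ⟨y.val % m, Nat.mod_lt _ (by omega)⟩ := by
    congr 1
    exact Fin.ext hmod
  rw [hc, hmod] at h
  have hdec : decide (m ≤ x.val) = decide (m ≤ y.val) := by
    generalize c ⟨y.val % m, _⟩ = b at h
    generalize decide (m ≤ x.val) = p at h ⊢
    generalize decide (m ≤ y.val) = q at h ⊢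
    cases b <;> cases p <;> cases q <;> simp_all
  have hiff : (m ≤ x.val) ↔ (m ≤ y.val) := by
    simpa using hdec
  rw [mod_of_lt_two_mul hx, mod_of_lt_two_mul hy] at hmod
  apply Fin.ext
  by_cases hxm : m ≤ x.val
  · have hym := hiff.1 hxm
    rw [if_pos hxm, if_pos hym] at hmod
    omega
  · have hym : ¬ m ≤ y.val := fun hh => hxm (hiff.2 hh)
    rw [if_neg hxm, if_neg hym] at hmod
    exact hmod

theorem iterPos_injective (m : ℕ) : ∀ (t : ℕ) (cs : Fin t → Fin m → Bool),
    Function.Injective (iterPos m t cs)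
  | 0, _ => fun _ _ h => h
  | t + 1, cs => by
      intro x y hxy
      simp only [iterPos] at hxy
      exact iterPos_injective m t _ (stepPos_injective m _ hxy)

/-- the permutation produced by a table of bits -/
noncomputable def permOf (m t : ℕ) (cs : Fin t → Fin m → Bool) : Equiv.Perm (Fin (2 * m)) :=
  Equiv.ofBijective (iterPos m t cs) (Finite.injective_iff_bijective.mp (iterPos_injective m t cs))

theorem permOf_eq_iff (m t : ℕ) (cs : Fin t → Fin m → Bool) (g : Equiv.Perm (Fin (2 * m))) :
    iterPos m t cs = ⇑g ↔ permOf m t cs = g := by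
  constructor
  · intro h
    apply Equiv.ext
    intro x
    show iterPos m t cs x = g x
    rw [h]
  · intro h
    rw [← h]
    rfl

theorem tv_lower (m t : ℕ) :
    1 - (2 : ℝ) ^ (m * t) / ((2 * m).factorial : ℝ) ≤ tvFromUniform m t := by
  classical
  set N : ℝ := ((2 * m).factorial : ℝ) with hN
  have hNpos : 0 < N := by rw [hN]; exact_mod_cast Nat.factorial_pos _
  have hcardΩ : (Fintype.card (Fin t → Fin m → Bool) : ℝ) = (2 : ℝ) ^ (m * t) := by
    simp only [Fintype.card_fun, Fintype.card_fin, Fintype.card_bool]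
    push_cast
    rw [← pow_mul]
  set M : ℝ := (2 : ℝ) ^ (m * t) with hM
  have hMpos : 0 < M := by rw [hM]; positivity
  let cnt : Equiv.Perm (Fin (2 * m)) → ℕ := fun g =>
    (Finset.univ.filter (fun cs : Fin t → Fin m → Bool => permOf m t cs = g)).card
  have hprob : ∀ g : Equiv.Perm (Fin (2 * m)),
      Crest.FinProb.uniformProb {cs : Fin t → Fin m → Bool | iterPos m t cs = ⇑g} = (cnt g : ℝ) / M := by
    intro g
    unfold Crest.FinProb.uniformProb
    rw [hcardΩ]
    congr 2
    apply Finset.card_bij (fun cs _ => cs)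
    · intro cs hcs
      simp only [Finset.mem_filter, Finset.mem_univ, true_and, Set.mem_ofPred_eq] at hcs ⊢
      exact (permOf_eq_iff m t cs g).1 hcs
    · intro a _ b _ hab
      exact hab
    · intro cs hcs
      refine ⟨cs, ?_, rfl⟩
      simp only [Finset.mem_filter, Finset.mem_univ, true_and, Set.mem_ofPred_eq] at hcs ⊢
      exact (permOf_eq_iff m t cs g).2 hcs
  have hsumcnt : (∑ g : Equiv.Perm (Fin (2 * m)), (cnt g : ℝ)) = M := by
    rw [← hcardΩ]
    have h1 : (Finset.univ : Finset (Fin t → Fin m → Bool)).card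
        = ∑ g : Equiv.Perm (Fin (2 * m)), cnt g :=
      Finset.card_eq_sum_card_fiberwise (f := permOf m t) (t := Finset.univ)
        (fun _ _ => Finset.mem_coe.2 (Finset.mem_univ _))
    rw [Finset.card_univ] at h1
    rw [h1]
    push_cast
    rfl
  have hcardperm : ((Finset.univ : Finset (Equiv.Perm (Fin (2 * m)))).card : ℝ) = N := by
    rw [Finset.card_univ, Fintype.card_perm, Fintype.card_fin]
  have hterm : ∀ g : Equiv.Perm (Fin (2 * m)),
      (cnt g : ℝ) / M + 1 / N - 2 * (1 / N) * (cnt g : ℝ) ≤ |(cnt g : ℝ) / M - 1 / N| := by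
    intro g
    have hu : 0 < 1 / N := by positivity
    rcases Nat.eq_zero_or_pos (cnt g) with h0 | hpos
    · rw [h0]
      simp only [Nat.cast_zero, zero_div, mul_zero, zero_sub, abs_neg, zero_add, sub_zero]
      exact le_abs_self _
    · have h1 : (1 : ℝ) ≤ (cnt g : ℝ) := by exact_mod_cast hpos
      have h2 : (cnt g : ℝ) / M - 1 / N ≤ |(cnt g : ℝ) / M - 1 / N| := le_abs_self _
      have h3 : 1 / N * 1 ≤ 1 / N * (cnt g : ℝ) := mul_le_mul_of_nonneg_left h1 hu.le
      nlinarith
  have hsum : (∑ g : Equiv.Perm (Fin (2 * m)),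
      ((cnt g : ℝ) / M + 1 / N - 2 * (1 / N) * (cnt g : ℝ))) = 2 - 2 * (M / N) := by
    rw [Finset.sum_sub_distrib, Finset.sum_add_distrib, ← Finset.sum_div, ← Finset.mul_sum, hsumcnt,
      Finset.sum_const, nsmul_eq_mul, hcardperm]
    field_simp
    ring
  have hfinal : 2 - 2 * (M / N) ≤ ∑ g : Equiv.Perm (Fin (2 * m)), |(cnt g : ℝ) / M - 1 / N| := by
    rw [← hsum]
    exact Finset.sum_le_sum (fun g _ => hterm g)
  unfold tvFromUniform
  simp only [hprob]
  linarith

/-- For a deck of `2 * 2 ^ d` cards and every number `t` of shuffles, the total variation distance between the law of the arrangement of the deck and the uniform law on all arrangements is at least `1 - 2 ^ (2 ^ d * t) / (2 * 2 ^ d)!`. -/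
theorem result (d t : ℕ) :
    1 - (2 : ℝ) ^ (2 ^ d * t) / ((2 * 2 ^ d).factorial : ℝ)
      ≤ Crest.ProbabilityR.Shuffle.tvFromUniform (2 ^ d) t := by
  exact tv_lower (2 ^ d) t

end Crest.Agent.S0223
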