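import Crest.Statements.S0324
import Crest.Agent.Cyl.SweepCover
import Crest.Agent.Cyl.TetraProj

set_option autoImplicit false
open MeasureTheory
open scoped ENNReal
open Crest Crest.GeometryTopology Crest.GeometryTopology.Convex

namespace Crest.Agent.S0324

open Crest.Agent.Cyl in
theorem result :
    ∃ (m : ℕ) (u p q r : Fin m → EuclideanSpace ℝ (Fin 3)),
      (∀ i, ‖u i‖ = 1) ∧
      (∀ i, inner ℝ (p i) (u i) = 0 ∧ inner ℝ (q i) (u i) = 0 ∧ inner ℝ (r i) (u i) = 0) ∧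
      convexHull ℝ {!₂[1, 0, 0], !₂[-1, 0, 0], !₂[0, 1, Real.sqrt 2], !₂[0, -1, Real.sqrt 2]} ⊆
        ⋃ i, {x : EuclideanSpace ℝ (Fin 3) | ∃ b ∈ convexHull ℝ {p i, q i, r i}, ∃ t : ℝ, x = b + t • u i} ∧
      ∃ δ : ℝ, 0 < δ ∧ ∀ v : EuclideanSpace ℝ (Fin 3), ‖v‖ = 1 →
        ∑ i, (μH[(2 : ℝ)] (convexHull ℝ {p i, q i, r i})).toReal + δ ≤
          (μH[(2 : ℝ)] ((fun y => y - inner ℝ y v • v) '' convexHull ℝ {!₂[1, 0, 0], !₂[-1, 0, 0], !₂[0, 1, Real.sqrt 2], !₂[0, -1, Real.sqrt 2]})).toReal / 2 := by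
  obtain ⟨u, p, q, r, hu, hperp, -, hcov, hsum⟩ := core_cover 8000000 (le_refl _)
  obtain ⟨κ, hκ, hfac⟩ := exists_hausdorff_factor (V := E3)
  have hs2 : 0 < Real.sqrt 2 := by positivity
  refine ⟨_, u, p, q, r, hu, hperp, hcov, κ * Real.sqrt 2 * (1 / 10 ^ 8), by positivity, ?_⟩
  intro v hv
  have h1 : Real.sqrt 2 ≤ (μHE[2] ((fun y => y - inner ℝ y v • v) '' Kstd)).toReal := by
    have := ENNReal.toReal_mono (proj_area_lt_top v hv).ne (proj_area_ge v hv)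
    rwa [ENNReal.toReal_ofReal hs2.le] at this
  have h2 : ∑ i, (μH[(2 : ℝ)] (convexHull ℝ {p i, q i, r i})).toReal
      = κ * ∑ i, (μHE[2] (tri (p i) (q i) (r i))).toReal := by
    rw [Finset.mul_sum]
    exact Finset.sum_congr rfl fun i _ => hfac _
  rw [h2, hfac]
  change _ ≤ κ * (μHE[2] ((fun y => y - inner ℝ y v • v) '' Kstd)).toReal / 2
  have h3 := mul_le_mul_of_nonneg_left hsum hκ.le
  have h4 := mul_le_mul_of_nonneg_left h1 hκ.le
  nlinarith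

end Crest.Agent.S0324
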