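import Crest.Statements.S0325
import Crest.Agent.Cyl.SweepCover
import Crest.Agent.Cyl.TetraProj

set_option autoImplicit false
open MeasureTheory
open scoped ENNReal
open Crest Crest.GeometryTopology Crest.GeometryTopology.Convex

namespace Crest.Agent.S0325

open Crest.Agent.Cyl in
theorem result :
    ((∀ v : EuclideanSpace ℝ (Fin 3), ‖v‖ = 1 →
        ENNReal.ofReal (Real.sqrt 2) ≤ μHE[2] ((fun y => y - inner ℝ y v • v) '' convexHull ℝ {!₂[1, 0, 0], !₂[-1, 0, 0], !₂[0, 1, Real.sqrt 2], !₂[0, -1, Real.sqrt 2]})) ∧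
      ∃ v : EuclideanSpace ℝ (Fin 3), ‖v‖ = 1 ∧
        μHE[2] ((fun y => y - inner ℝ y v • v) '' convexHull ℝ {!₂[1, 0, 0], !₂[-1, 0, 0], !₂[0, 1, Real.sqrt 2], !₂[0, -1, Real.sqrt 2]}) = ENNReal.ofReal (Real.sqrt 2)) ∧
    ∀ ε : ℝ, 0 < ε → ε ≤ 1 / 2000 →
      ∃ (u p q r : Fin (2 * ⌈2 / ε ^ 2⌉₊) → EuclideanSpace ℝ (Fin 3)),
        (∀ i, ‖u i‖ = 1) ∧
        (∀ i, inner ℝ (p i) (u i) = 0 ∧ inner ℝ (q i) (u i) = 0 ∧ inner ℝ (r i) (u i) = 0) ∧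
        convexHull ℝ {!₂[1, 0, 0], !₂[-1, 0, 0], !₂[0, 1, Real.sqrt 2], !₂[0, -1, Real.sqrt 2]} ⊆
          ⋃ i, {x : EuclideanSpace ℝ (Fin 3) | ∃ b ∈ convexHull ℝ {p i, q i, r i}, ∃ t : ℝ, x = b + t • u i} ∧
        abs ((∑ i, (μHE[2] (convexHull ℝ ({p i, q i, r i} : Set (EuclideanSpace ℝ (Fin 3))))).toReal) / Real.sqrt 2 -
            (1 / 2 - 13 / 6000 * ε ^ 2)) ≤ 2 * ε ^ 4 := by
  refine ⟨⟨fun v hv => proj_area_ge v hv, proj_area_eq⟩, ?_⟩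
  intro ε hε hε'
  have hs2 : 0 < Real.sqrt 2 := by positivity
  have hε2 : ε ^ 2 ≤ 1 / 4000000 := by nlinarith
  have hN : 8000000 ≤ ⌈2 / ε ^ 2⌉₊ := by
    have h1 : (8000000 : ℝ) ≤ 2 / ε ^ 2 := by
      rw [le_div_iff₀ (by positivity)]; nlinarith
    have h2 : (2 / ε ^ 2 : ℝ) ≤ (⌈2 / ε ^ 2⌉₊ : ℝ) := Nat.le_ceil _
    exact_mod_cast h1.trans h2
  have hc := (core_cover ⌈2 / ε ^ 2⌉₊ hN).mono (S' := Kstd) (le_refl _)
    (A' := Real.sqrt 2 * (1 / 2 - 13 / 6000 * ε ^ 2)) (by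
      apply mul_le_mul_of_nonneg_left _ hs2.le
      nlinarith)
  obtain ⟨u, p, q, r, hu, hperp, -, hcov, hsum⟩ := hc.exact (by omega)
  refine ⟨u, p, q, r, hu, hperp, hcov, ?_⟩
  have : (∑ i, (μHE[2] (convexHull ℝ ({p i, q i, r i} : Set (EuclideanSpace ℝ (Fin 3))))).toReal)
      = Real.sqrt 2 * (1 / 2 - 13 / 6000 * ε ^ 2) := hsum
  rw [this, mul_div_cancel_left₀ _ hs2.ne', sub_self, abs_zero]
  positivity

end Crest.Agent.S0325
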