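import Crest.Statements.S0327
import Crest.Agent.Cyl.SweepCover
import Crest.Agent.Cyl.Regular
import Crest.Agent.Cyl.CoverPar

set_option autoImplicit false
open MeasureTheory
open scoped ENNReal
open Crest Crest.GeometryTopology Crest.GeometryTopology.Convex

namespace Crest.Agent.S0327

open Crest.Agent.Cyl in
theorem result
    (w : Fin 4 → EuclideanSpace ℝ (Fin 3)) (ℓ : ℝ) (hℓ : 0 < ℓ)
    (hw : ∀ i j, i ≠ j → dist (w i) (w j) = ℓ) :
    (∃ (k : ℕ) (u c a b : Fin k → EuclideanSpace ℝ (Fin 3)),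
      (∀ i, ‖u i‖ = 1) ∧
      (∀ i, inner ℝ (c i) (u i) = 0 ∧ inner ℝ (a i) (u i) = 0 ∧ inner ℝ (b i) (u i) = 0) ∧
      convexHull ℝ (Set.range w) ⊆ ⋃ i, {x : EuclideanSpace ℝ (Fin 3) |
        ∃ s ∈ Set.Icc (0 : ℝ) 1, ∃ t ∈ Set.Icc (0 : ℝ) 1, ∃ τ : ℝ, x = c i + s • a i + t • b i + τ • u i} ∧
      (∃ δ : ℝ, 0 < δ ∧ ∀ v : EuclideanSpace ℝ (Fin 3), ‖v‖ = 1 →
        (∑ i, (μHE[2] {x : EuclideanSpace ℝ (Fin 3) |
            ∃ s ∈ Set.Icc (0 : ℝ) 1, ∃ t ∈ Set.Icc (0 : ℝ) 1, x = c i + s • a i + t • b i}).toReal) + δ ≤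
          (μHE[2] ((fun y => y - inner ℝ y v • v) '' convexHull ℝ (Set.range w))).toReal / 2) ∧
      ∑ i, (μHE[2] {x : EuclideanSpace ℝ (Fin 3) |
            ∃ s ∈ Set.Icc (0 : ℝ) 1, ∃ t ∈ Set.Icc (0 : ℝ) 1, x = c i + s • a i + t • b i}).toReal /
          (μHE[2] ((fun y => y - inner ℝ y (u i) • u i) '' convexHull ℝ (Set.range w))).toReal < 1 / 2) ∧
    (∃ (k : ℕ) (u : Fin k → EuclideanSpace ℝ (Fin 3)) (B : Fin k → Set (EuclideanSpace ℝ (Fin 3))),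
      (∀ i, ‖u i‖ = 1) ∧
      (∀ i, Bornology.IsBounded (B i) ∧ ∃ O : Set (EuclideanSpace ℝ (Fin 3)), IsOpen O ∧
        B i = O ∩ {x | inner ℝ x (u i) = 0}) ∧
      convexHull ℝ (Set.range w) ⊆
        ⋃ i, {x : EuclideanSpace ℝ (Fin 3) | ∃ y ∈ B i, ∃ τ : ℝ, x = y + τ • u i} ∧
      (∃ δ : ℝ, 0 < δ ∧ ∀ v : EuclideanSpace ℝ (Fin 3), ‖v‖ = 1 →
        (∑ i, (μHE[2] (B i)).toReal) + δ ≤
          (μHE[2] ((fun y => y - inner ℝ y v • v) '' convexHull ℝ (Set.range w))).toReal / 2) ∧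
      ∑ i, (μHE[2] (B i)).toReal /
          (μHE[2] ((fun y => y - inner ℝ y (u i) • u i) '' convexHull ℝ (Set.range w))).toReal < 1 / 2) := by
  obtain ⟨U, c₀, hK⟩ := regular_eq_image w ℓ hℓ hw
  have hs2 : 0 < Real.sqrt 2 := by positivity
  set k₀ : ℝ := ℓ / 2 with hk₀
  have hk : 0 < k₀ := by positivity
  set Q : ℝ := k₀ ^ 2 * Real.sqrt 2 with hQ
  have hQpos : 0 < Q := by positivity
  have hproj : ∀ v : E3, ‖v‖ = 1 →
      Q ≤ (μHE[2] ((fun y => y - inner ℝ y v • v) '' convexHull ℝ (Set.range w))).toReal := by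
    intro v hv
    rw [hK]
    exact proj_area_image_ge U c₀ k₀ hk v hv
  have hpar : ParCover (convexHull ℝ (Set.range w)) (2 * 8000000 * 1000000000)
      (Q * (1 / 2 - 9 / 10 ^ 9)) := by
    have h1 := ((core_cover 8000000 (le_refl _)).image U k₀ hk c₀).toPar 1000000000 (by norm_num)
    rw [← hK] at h1
    obtain ⟨u, c, a, b, h⟩ := h1
    refine ⟨u, c, a, b, h.1, h.2.1, h.2.2.1, h.2.2.2.1, h.2.2.2.2.trans ?_⟩
    have : (1 + 1 / ((1000000000 : ℕ) : ℝ)) * (k₀ ^ 2 * (Real.sqrt 2 * (1 / 2 - 1 / 10 ^ 8)))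
        = Q * ((1 + 1 / 1000000000) * (1 / 2 - 1 / 10 ^ 8)) := by
      rw [hQ]; push_cast; ring
    rw [this]
    apply mul_le_mul_of_nonneg_left _ hQpos.le
    norm_num
  -- a general closing argument
  have key : ∀ (k : ℕ) (u : Fin k → E3) (ar : Fin k → ℝ), (∀ i, ‖u i‖ = 1) → (∀ i, 0 ≤ ar i) →
      ∑ i, ar i ≤ Q * (1 / 2 - 8 / 10 ^ 9) →
      (∃ δ : ℝ, 0 < δ ∧ ∀ v : E3, ‖v‖ = 1 → (∑ i, ar i) + δ ≤
          (μHE[2] ((fun y => y - inner ℝ y v • v) '' convexHull ℝ (Set.range w))).toReal / 2) ∧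
      ∑ i, ar i /
          (μHE[2] ((fun y => y - inner ℝ y (u i) • u i) '' convexHull ℝ (Set.range w))).toReal
        < 1 / 2 := by
    intro k u ar hu har hsum
    refine ⟨⟨Q * (8 / 10 ^ 9), by positivity, fun v hv => ?_⟩, ?_⟩
    · have := hproj v hv
      nlinarith
    · have h1 : ∑ i, ar i /
          (μHE[2] ((fun y => y - inner ℝ y (u i) • u i) '' convexHull ℝ (Set.range w))).toReal
          ≤ ∑ i, ar i / Q := by
        apply Finset.sum_le_sum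
        intro i _
        exact div_le_div_of_nonneg_left (har i) hQpos (hproj (u i) (hu i))
      rw [← Finset.sum_div] at h1
      have h2 : (∑ i, ar i) / Q ≤ 1 / 2 - 8 / 10 ^ 9 := by
        rw [div_le_iff₀ hQpos]; linarith
      have : (1 / 2 - 8 / 10 ^ 9 : ℝ) < 1 / 2 := by norm_num
      linarith
  constructor
  · obtain ⟨u, c, a, b, hu, hperp, -, hcov, hsum⟩ := hpar
    obtain ⟨hδ, hlt⟩ := key _ u (fun i => (μHE[2] (pgram (c i) (a i) (b i))).toReal) hu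
      (fun i => ENNReal.toReal_nonneg) (hsum.trans (by
        apply mul_le_mul_of_nonneg_left _ hQpos.le; norm_num))
    refine ⟨_, u, c, a, b, hu, hperp, ?_, hδ, hlt⟩
    intro x hx
    obtain ⟨i, hi⟩ := Set.mem_iUnion.1 (hcov hx)
    obtain ⟨y, ⟨s, hs, t, ht, rfl⟩, τ, rfl⟩ := hi
    exact Set.mem_iUnion.2 ⟨i, s, hs, t, ht, τ, rfl⟩
  · obtain ⟨u, B, hu, hB, hcov, -, hsum⟩ := hpar.toOpen (Q * (1 / 10 ^ 9)) (by positivity)
    obtain ⟨hδ, hlt⟩ := key _ u (fun i => (μHE[2] (B i)).toReal) hu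
      (fun i => ENNReal.toReal_nonneg) (hsum.trans (by nlinarith))
    exact ⟨_, u, B, hu, hB, hcov, hδ, hlt⟩

end Crest.Agent.S0327
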