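import Crest.Statements.S0328
import Crest.Agent.Cyl.Sector

set_option autoImplicit false
open MeasureTheory
open scoped ENNReal
open Crest Crest.GeometryTopology Crest.GeometryTopology.Convex

namespace Crest.Agent.S0328

open Crest.Agent.Cyl Crest.Agent.Cyl.Sector

/-- Unit e; a, b, p₀ ∈ e^⊥, a, b independent; α < β; L > 0; R ≥ 0, λ both continuous on [α, β]; w(t) ∈ e^⊥, w′ = λ(t)(a + tb). S = {p₀ + ρ(a + t b) + s(e + w t) : α ≤ t ≤ β, 0 ≤ ρ ≤ R t, ‖s‖ ≤ L}; A = κ ∫_α^β R²/(2√(1 + ‖w‖²)), κ = area spanned by a, b. For η > 0 a δ > 0 makes each partition t₀ < … < t_N of [α, β] of mesh ≤ δ, tags cᵢ, admit N cylinders (axes e + w(cᵢ), nondegenerate triangle bases) covering S, total area within η of A; same for S's pieces tᵢ ≤ t ≤ tᵢ₊₁ projected along these axes. -/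
theorem result
    (e a b p₀ : EuclideanSpace ℝ (Fin 3)) (he : ‖e‖ = 1)
    (ha : inner ℝ a e = 0) (hb : inner ℝ b e = 0) (hp₀ : inner ℝ p₀ e = 0)
    (hab : LinearIndependent ℝ ![a, b]) (L : ℝ) (hL : 0 < L) (α β : ℝ) (hαβ : α < β)
    (R : ℝ → ℝ) (hR : ContinuousOn R (Set.Icc α β)) (hR0 : ∀ t ∈ Set.Icc α β, 0 ≤ R t)
    (w : ℝ → EuclideanSpace ℝ (Fin 3)) (hw : ∀ t ∈ Set.Icc α β, inner ℝ (w t) e = 0)
    (lam : ℝ → ℝ) (hlam : ContinuousOn lam (Set.Icc α β))
    (hw' : ∀ t ∈ Set.Icc α β, HasDerivWithinAt w (lam t • (a + t • b)) (Set.Icc α β) t)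
    (η : ℝ) (hη : 0 < η) :
    ∃ δ : ℝ, 0 < δ ∧ ∀ (N : ℕ) (t : Fin (N + 1) → ℝ) (c : Fin N → ℝ),
      StrictMono t → t 0 = α → t (Fin.last N) = β →
      (∀ i : Fin N, t i.succ - t i.castSucc ≤ δ) →
      (∀ i : Fin N, t i.castSucc ≤ c i ∧ c i ≤ t i.succ) →
      (∃ (p q r : Fin N → EuclideanSpace ℝ (Fin 3)),
        (∀ i, inner ℝ (p i) (e + w (c i)) = 0 ∧ inner ℝ (q i) (e + w (c i)) = 0 ∧
          inner ℝ (r i) (e + w (c i)) = 0) ∧
        (∀ i, AffineIndependent ℝ ![p i, q i, r i]) ∧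
        {x : EuclideanSpace ℝ (Fin 3) | ∃ τ ∈ Set.Icc α β, ∃ ρ ∈ Set.Icc 0 (R τ), ∃ s : ℝ, abs s ≤ L ∧
            x = p₀ + ρ • (a + τ • b) + s • (e + w τ)} ⊆
          ⋃ i, {x : EuclideanSpace ℝ (Fin 3) | ∃ y ∈ convexHull ℝ {p i, q i, r i}, ∃ σ : ℝ,
            x = y + σ • (e + w (c i))} ∧
        abs ((∑ i, (μHE[2] (convexHull ℝ ({p i, q i, r i} : Set (EuclideanSpace ℝ (Fin 3))))).toReal) -
            Real.sqrt (‖a‖ ^ 2 * ‖b‖ ^ 2 - inner ℝ a b ^ 2) *
              ∫ τ in α..β, R τ ^ 2 / (2 * Real.sqrt (1 + ‖w τ‖ ^ 2))) ≤ η) ∧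
      abs ((∑ i : Fin N, (μHE[2] ((fun y => y - (inner ℝ y (e + w (c i)) / ‖e + w (c i)‖ ^ 2) • (e + w (c i))) ''
            {x : EuclideanSpace ℝ (Fin 3) | ∃ τ ∈ Set.Icc (t i.castSucc) (t i.succ), ∃ ρ ∈ Set.Icc 0 (R τ),
              ∃ s : ℝ, abs s ≤ L ∧ x = p₀ + ρ • (a + τ • b) + s • (e + w τ)})).toReal) -
          Real.sqrt (‖a‖ ^ 2 * ‖b‖ ^ 2 - inner ℝ a b ^ 2) *
            ∫ τ in α..β, R τ ^ 2 / (2 * Real.sqrt (1 + ‖w τ‖ ^ 2))) ≤ η := by
  classical
  have hgram : 0 < gram2 a b := gram2_pos_of_linearIndependent a b hab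
  set κ := Real.sqrt (gram2 a b) with hκdef
  have hκ : 0 < κ := Real.sqrt_pos.mpr hgram
  have hκeq : Real.sqrt (‖a‖ ^ 2 * ‖b‖ ^ 2 - inner ℝ a b ^ 2) = κ := rfl
  obtain ⟨Λ, hΛ⟩ := isCompact_Icc.exists_bound_of_continuousOn hlam
  obtain ⟨Rm, hRm⟩ := isCompact_Icc.exists_bound_of_continuousOn hR
  have hαI : α ∈ Set.Icc α β := ⟨le_refl _, hαβ.le⟩
  have hΛ0 : 0 ≤ Λ := (norm_nonneg _).trans (hΛ α hαI)
  have hRm0 : 0 ≤ Rm := (norm_nonneg _).trans (hRm α hαI)
  have hwcont : ContinuousOn w (Set.Icc α β) := fun x hx => (hw' x hx).continuousWithinAt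
  set F : ℝ → ℝ := fun τ => R τ ^ 2 / (2 * Real.sqrt (1 + ‖w τ‖ ^ 2)) with hF
  have hFcont : ContinuousOn F (Set.Icc α β) := by
    apply ContinuousOn.div (hR.pow 2)
    · apply ContinuousOn.mul continuousOn_const
      apply ContinuousOn.sqrt
      exact continuousOn_const.add (hwcont.norm.pow 2)
    · intro x _
      positivity
  set ε := η / (2 * κ * (β - α)) with hε
  have hβα : 0 < β - α := sub_pos.mpr hαβ
  have hεpos : 0 < ε := by positivity
  set C := 8 * Rm + 16 + 2 * (Rm + 4) ^ 2 with hC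
  have hCpos : 0 < C := by positivity
  set μ := min 1 (ε / C) with hμ
  have hμ0 : 0 < μ := lt_min one_pos (by positivity)
  have hμ1 : μ ≤ 1 := min_le_left _ _
  have hμC : μ * C ≤ ε := by
    have : μ ≤ ε / C := min_le_right _ _
    rwa [le_div_iff₀ hCpos] at this
  obtain ⟨δ₁, hδ₁, hRu⟩ := Metric.uniformContinuousOn_iff.mp
    (isCompact_Icc.uniformContinuousOn_of_continuous hR) μ hμ0
  obtain ⟨δ₂, hδ₂, hFu⟩ := Metric.uniformContinuousOn_iff.mp
    (isCompact_Icc.uniformContinuousOn_of_continuous hFcont) ε hεpos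
  refine ⟨min (min (δ₁ / 2) (δ₂ / 2)) (μ ^ 2 / (L * Λ + 1)), by positivity, ?_⟩
  intro N t c hmono h0 h1 hmesh htag
  have hmem := mem_Icc_of_partition hmono h0 h1
  have hlt : ∀ i : Fin N, t i.castSucc < t i.succ := fun i => hmono Fin.castSucc_lt_succ
  have hm1 : ∀ i : Fin N, t i.succ - t i.castSucc < δ₁ := fun i => by
    have := (hmesh i).trans ((min_le_left _ _).trans (min_le_left _ _)); linarith
  have hm2 : ∀ i : Fin N, t i.succ - t i.castSucc < δ₂ := fun i => by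
    have := (hmesh i).trans ((min_le_left _ _).trans (min_le_right _ _)); linarith
  have hm3 : ∀ i : Fin N, L * Λ * (t i.succ - t i.castSucc) ≤ μ ^ 2 := fun i => by
    have h3 := (hmesh i).trans (min_le_right _ _)
    have hpos : 0 < L * Λ + 1 := by positivity
    rw [le_div_iff₀ hpos] at h3
    have : 0 < t i.succ - t i.castSucc := sub_pos.mpr (hlt i)
    nlinarith
  have hcI : ∀ i : Fin N, c i ∈ Set.Icc α β := fun i =>
    ⟨(hmem _).1.trans (htag i).1, (htag i).2.trans (hmem _).2⟩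
  have hsubI : ∀ i : Fin N, ∀ τ ∈ Set.Icc (t i.castSucc) (t i.succ), τ ∈ Set.Icc α β :=
    fun i τ hτ => ⟨(hmem _).1.trans hτ.1, hτ.2.trans (hmem _).2⟩
  have hdist : ∀ i : Fin N, ∀ τ ∈ Set.Icc (t i.castSucc) (t i.succ),
      dist τ (c i) ≤ t i.succ - t i.castSucc := fun i τ hτ => by
    rw [Real.dist_eq, abs_le]
    constructor <;> linarith [hτ.1, hτ.2, (htag i).1, (htag i).2]
  have hRosc : ∀ i : Fin N, ∀ τ ∈ Set.Icc (t i.castSucc) (t i.succ), |R τ - R (c i)| ≤ μ :=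
    fun i τ hτ => by
      have := hRu τ (hsubI i τ hτ) (c i) (hcI i) (lt_of_le_of_lt (hdist i τ hτ) (hm1 i))
      rw [Real.dist_eq] at this
      exact this.le
  have hFosc : ∀ i : Fin N, ∀ τ ∈ Set.Icc (t i.castSucc) (t i.succ), |F τ - F (c i)| ≤ ε :=
    fun i τ hτ => by
      have := hFu τ (hsubI i τ hτ) (c i) (hcI i) (lt_of_le_of_lt (hdist i τ hτ) (hm2 i))
      rw [Real.dist_eq] at this
      exact this.le
  have hmain := fun i : Fin N => sector_main e a b p₀ he ha hb hgram L hL α β R w hw lam hlam hw' Λ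
    (fun x hx => by simpa using hΛ x hx) μ hμ0 hμ1 (t i.castSucc) (t i.succ) (c i) (hlt i)
    (htag i).1 (htag i).2 (hmem _).1 (hmem _).2 (hm3 i) hR0 (hRosc i)
  choose p q r horth haff hcov harea using hmain
  -- estimates on the densities
  have hS1 : ∀ i : Fin N, 1 ≤ Real.sqrt (1 + ‖w (c i)‖ ^ 2) := fun i => by
    rw [Real.one_le_sqrt]; nlinarith [sq_nonneg ‖w (c i)‖]
  have hRc : ∀ i : Fin N, 0 ≤ R (c i) ∧ R (c i) ≤ Rm := fun i =>
    ⟨hR0 _ (hcI i), (le_abs_self _).trans (by simpa using hRm _ (hcI i))⟩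
  have hup : ∀ i : Fin N, (R (c i) + 4 * μ) ^ 2 * (1 + 2 * μ) / (2 * Real.sqrt (1 + ‖w (c i)‖ ^ 2))
      ≤ F (c i) + ε := fun i => by
    have h2 := upper_est (R (c i)) Rm μ (hRc i).1 (hRc i).2 hμ0 hμ1
    have hS := hS1 i
    have hSpos : 0 < 2 * Real.sqrt (1 + ‖w (c i)‖ ^ 2) := by positivity
    rw [hF]
    simp only
    rw [div_add' _ _ _ hSpos.ne', div_le_div_iff_of_pos_right hSpos]
    nlinarith
  have hup' : ∀ i : Fin N, F (c i) ≤
      (R (c i) + 4 * μ) ^ 2 * (1 + 2 * μ) / (2 * Real.sqrt (1 + ‖w (c i)‖ ^ 2)) := fun i => by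
    have hSpos : 0 < 2 * Real.sqrt (1 + ‖w (c i)‖ ^ 2) := by positivity
    rw [hF]
    simp only
    rw [div_le_div_iff_of_pos_right hSpos]
    have := (hRc i).1
    have h3 : R (c i) ^ 2 ≤ (R (c i) + 4 * μ) ^ 2 := pow_le_pow_left₀ this (by linarith) 2
    nlinarith [sq_nonneg (R (c i) + 4 * μ)]
  have hlo : ∀ i : Fin N, F (c i) - ε ≤
      (max (R (c i) - μ) 0) ^ 2 / (2 * Real.sqrt (1 + ‖w (c i)‖ ^ 2)) := fun i => by
    have h2 := lower_est (R (c i)) Rm μ (hRc i).1 (hRc i).2 hμ0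
    have hS := hS1 i
    have hSpos : 0 < 2 * Real.sqrt (1 + ‖w (c i)‖ ^ 2) := by positivity
    rw [hF]
    simp only
    rw [div_sub' hSpos.ne', div_le_div_iff_of_pos_right hSpos]
    have : μ * (2 * Rm) ≤ μ * C := by
      apply mul_le_mul_of_nonneg_left _ hμ0.le
      rw [hC]; nlinarith [sq_nonneg (Rm + 4)]
    nlinarith
  have hfinal : κ * (ε + ε) * (β - α) = η := by
    rw [hε]; field_simp; ring
  have hDpos : ∀ i : Fin N, 0 < t i.succ - t i.castSucc := fun i => sub_pos.mpr (hlt i)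
  have hN : 0 < N := by
    rcases Nat.eq_zero_or_pos N with h | h
    · subst h
      exfalso
      have : t 0 = t (Fin.last 0) := rfl
      rw [h0, h1] at this
      exact hαβ.ne this
    · exact h
  constructor
  · refine ⟨p, q, r, horth, haff, ?_, ?_⟩
    · rintro x ⟨τ, hτ, ρ, hρ, s, hs, rfl⟩
      obtain ⟨i, hi0, hi1⟩ := exists_index N t τ hN (h0 ▸ hτ.1) (h1 ▸ hτ.2)
      rw [Set.mem_iUnion]
      refine ⟨i, _, hcov i _ ⟨τ, ⟨hi0, hi1⟩, ρ, hρ, s, hs, rfl⟩, _, eq_proj_add _ _⟩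
    · rw [hκeq, ← hfinal]
      apply riemann_squeeze F α β hFcont N t c hmono h0 h1 κ ε ε hκ.le hFosc
      · intro i
        rw [harea i]
        apply mul_le_mul_of_nonneg_right _ (hDpos i).le
        apply mul_le_mul_of_nonneg_left _ hκ.le
        linarith [hup' i]
      · intro i
        rw [harea i]
        apply mul_le_mul_of_nonneg_right _ (hDpos i).le
        apply mul_le_mul_of_nonneg_left (hup i) hκ.le
  · rw [hκeq, ← hfinal]
    have hsub : ∀ i : Fin N, proj (e + w (c i)) '' piece e a b p₀ L R w (t i.castSucc) (t i.succ) ⊆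
        convexHull ℝ ({p i, q i, r i} : Set E3) := by
      rintro i _ ⟨x, hx, rfl⟩
      exact hcov i x hx
    have hfinH : ∀ i : Fin N, μHE[2] (convexHull ℝ ({p i, q i, r i} : Set E3)) ≠ ⊤ := fun i => by
      rw [area_triangle]; exact ENNReal.ofReal_ne_top
    have hfinP : ∀ i : Fin N,
        μHE[2] (proj (e + w (c i)) '' piece e a b p₀ L R w (t i.castSucc) (t i.succ)) ≠ ⊤ :=
      fun i => ne_top_of_le_ne_top (hfinH i) (measure_mono (hsub i))
    apply riemann_squeeze F α β hFcont N t c hmono h0 h1 κ ε ε hκ.le hFosc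
      (fun i => (μHE[2] (proj (e + w (c i)) '' piece e a b p₀ L R w (t i.castSucc) (t i.succ))).toReal)
    · intro i
      have h4 := sector_lower e a b p₀ he ha hb L hL.le R w (c i) (hw _ (hcI i)) (t i.castSucc)
        (t i.succ) (max (R (c i) - μ) 0) (hlt i).le (le_max_right _ _)
        (fun τ hτ => by
          apply max_le
          · have := abs_le.mp (hRosc i τ hτ); linarith
          · exact hR0 τ (hsubI i τ hτ)) (hfinP i)
      refine le_trans ?_ h4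
      apply mul_le_mul_of_nonneg_right _ (hDpos i).le
      apply mul_le_mul_of_nonneg_left (hlo i) hκ.le
    · intro i
      have h5 := ENNReal.toReal_mono (hfinH i) (measure_mono (μ := μHE[2]) (hsub i))
      refine le_trans h5 ?_
      rw [harea i]
      apply mul_le_mul_of_nonneg_right _ (hDpos i).le
      apply mul_le_mul_of_nonneg_left (hup i) hκ.le

end Crest.Agent.S0328
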