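import Crest.Statements.S0329
import Crest.Agent.S0326
import Crest.Agent.Cyl.CoverPar

set_option autoImplicit false
open MeasureTheory
open scoped ENNReal
open Crest Crest.GeometryTopology Crest.GeometryTopology.Convex

namespace Crest.Agent.S0329

open Crest.Agent.Cyl

/-- the first coordinate vector. -/
noncomputable def e0 : E3 := !₂[1, 0, 0]

/-- lift of a planar vector to `e0^⊥`, with the second coordinate stretched by `h`. -/
noncomputable def lift (h : ℝ) (ξ : E2) : E3 := !₂[0, ξ 0, h * ξ 1]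

theorem norm_e0 : ‖e0‖ = 1 := by
  simp [e0, EuclideanSpace.norm_eq, Fin.sum_univ_three]

theorem lift_add (h : ℝ) (ξ ζ : E2) : lift h (ξ + ζ) = lift h ξ + lift h ζ := by
  ext j
  fin_cases j <;> simp [lift, mul_add]

theorem lift_smul (h t : ℝ) (ξ : E2) : lift h (t • ξ) = t • lift h ξ := by
  ext j
  fin_cases j
  · simp [lift]
  · simp [lift]
  · simp [lift]; ring

theorem inner_lift_e0 (h : ℝ) (ξ : E2) : inner ℝ (lift h ξ) e0 = 0 := by
  simp [lift, e0, PiLp.inner_apply, Fin.sum_univ_three]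

theorem norm_lift_sq (h : ℝ) (ξ : E2) : ‖lift h ξ‖ ^ 2 = ξ 0 ^ 2 + h ^ 2 * ξ 1 ^ 2 := by
  rw [EuclideanSpace.real_norm_sq_eq]
  simp [lift, Fin.sum_univ_three]
  ring

theorem inner_lift (h : ℝ) (ξ ζ : E2) :
    inner ℝ (lift h ξ) (lift h ζ) = ξ 0 * ζ 0 + h ^ 2 * (ξ 1 * ζ 1) := by
  simp [lift, PiLp.inner_apply, Fin.sum_univ_three]
  ring

theorem gram2_lift (h : ℝ) (ξ ζ : E2) : gram2 (lift h ξ) (lift h ζ) = h ^ 2 * gram2 ξ ζ := by
  unfold gram2
  rw [norm_lift_sq, norm_lift_sq, inner_lift, EuclideanSpace.real_norm_sq_eq,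
    EuclideanSpace.real_norm_sq_eq]
  simp [PiLp.inner_apply, Fin.sum_univ_two]
  ring

theorem prjN_add (W x y : E3) : prjN W (x + y) = prjN W x + prjN W y := by
  unfold prjN
  rw [inner_add_left, add_div, add_smul]
  abel

theorem prjN_smul (W : E3) (t : ℝ) (x : E3) : prjN W (t • x) = t • prjN W x := by
  unfold prjN
  rw [inner_smul_left, smul_sub, smul_smul]
  simp [mul_div_assoc]

theorem inner_prjN (W y : E3) (hW : W ≠ 0) : inner ℝ (prjN W y) W = 0 := by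
  unfold prjN
  rw [inner_sub_left, inner_smul_left, real_inner_self_eq_norm_sq]
  have : ‖W‖ ^ 2 ≠ 0 := by positivity
  simp
  field_simp
  ring

theorem norm_W_sq (h : ℝ) (g : E2) : ‖e0 + lift h g‖ ^ 2 = 1 + ‖lift h g‖ ^ 2 := by
  rw [norm_add_sq_real, norm_e0, real_inner_comm, inner_lift_e0]
  ring

/-- Let h, M > 0, D ⊂ ℝ² be compact with Lebesgue-null boundary, and V : ℝ² → ℝ² be C¹ on an open set containing D with tr DV(p) = 0 and −1/M² < det DV(p) < 0 for p ∈ D. For every ε > 0 the set of points (x, p₁ + x V₁(p), h (p₂ + x V₂(p))) ∈ ℝ³ with p ∈ D, −M ≤ x ≤ M is covered by finitely many cylinders Bᵢ + ℝ uᵢ, ‖uᵢ‖ = 1, with bases Bᵢ bounded relatively open subsets of the planes uᵢ^⊥ and ∑ᵢ area(Bᵢ) ≤ h ∫_D (1 + V₁² + h² V₂²)^(−1/2) + ε (areas: normalised 2-dimensional Hausdorff measure). -/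
theorem result
    (h M : ℝ) (hh : 0 < h) (hM : 0 < M) (D : Set (EuclideanSpace ℝ (Fin 2))) (hD : IsCompact D)
    (hbd : volume (frontier D) = 0)
    (V : EuclideanSpace ℝ (Fin 2) → EuclideanSpace ℝ (Fin 2)) (U : Set (EuclideanSpace ℝ (Fin 2)))
    (hU : IsOpen U) (hDU : D ⊆ U) (hV : ContDiffOn ℝ 1 V U)
    (htr : ∀ p ∈ D, LinearMap.trace ℝ _ (fderiv ℝ V p).toLinearMap = 0)
    (hdet : ∀ p ∈ D, -(M ^ 2)⁻¹ < LinearMap.det (fderiv ℝ V p).toLinearMap ∧
      LinearMap.det (fderiv ℝ V p).toLinearMap < 0)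
    (ε : ℝ) (hε : 0 < ε) :
    ∃ (k : ℕ) (u : Fin k → EuclideanSpace ℝ (Fin 3)) (B : Fin k → Set (EuclideanSpace ℝ (Fin 3))),
      (∀ i, ‖u i‖ = 1) ∧
      (∀ i, Bornology.IsBounded (B i) ∧ ∃ O : Set (EuclideanSpace ℝ (Fin 3)), IsOpen O ∧
        B i = O ∩ {x | inner ℝ x (u i) = 0}) ∧
      {z : EuclideanSpace ℝ (Fin 3) | ∃ p ∈ D, ∃ x : ℝ, abs x ≤ M ∧
          z = !₂[x, p 0 + x * V p 0, h * (p 1 + x * V p 1)]} ⊆
        ⋃ i, {z : EuclideanSpace ℝ (Fin 3) | ∃ y ∈ B i, ∃ τ : ℝ, z = y + τ • u i} ∧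
      ∑ i, (μHE[2] (B i)).toReal ≤
        h * (∫ p in D, 1 / Real.sqrt (1 + (V p 0) ^ 2 + h ^ 2 * (V p 1) ^ 2)) + ε := by
  classical
  obtain ⟨k, c, a, b, g, hsq, hcov, hsum⟩ := Crest.Agent.S0326.result D hD V U hU hDU hV M h hM hh htr
    (fun p hp => ⟨(hdet p hp).1, (hdet p hp).2.le⟩) (ε / (2 * h)) (by positivity)
  set W : Fin k → E3 := fun i => e0 + lift h (g i) with hWdef
  have hWsq : ∀ i, ‖W i‖ ^ 2 = 1 + (g i 0) ^ 2 + h ^ 2 * (g i 1) ^ 2 := by
    intro i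
    rw [hWdef]
    simp only
    rw [norm_W_sq, norm_lift_sq]; ring
  have hWpos : ∀ i, 0 < ‖W i‖ := by
    intro i
    have h1 := hWsq i
    have h2 : 0 < ‖W i‖ ^ 2 := by rw [h1]; positivity
    by_contra hcon
    have h3 : ‖W i‖ = 0 := le_antisymm (not_lt.mp hcon) (norm_nonneg _)
    rw [h3] at h2
    norm_num at h2
  have hWne : ∀ i, W i ≠ 0 := fun i => norm_pos_iff.mp (hWpos i)
  have hgram : ∀ i, gram2 (prjN (W i) (lift h (a i))) (prjN (W i) (lift h (b i)))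
      = (h * ‖a i‖ ^ 2) ^ 2 / (1 + (g i 0) ^ 2 + h ^ 2 * (g i 1) ^ 2) := by
    intro i
    rw [hWdef]
    simp only
    rw [gram2_prjN e0 (lift h (g i)) _ _ norm_e0 (inner_lift_e0 _ _) (inner_lift_e0 _ _)
      (inner_lift_e0 _ _), gram2_lift, norm_lift_sq]
    unfold gram2
    rw [(hsq i).2.1, (hsq i).2.2]
    congr 1
    · ring
    · ring
  have hpar : ParCover {z : EuclideanSpace ℝ (Fin 3) | ∃ p ∈ D, ∃ x : ℝ, abs x ≤ M ∧
      z = !₂[x, p 0 + x * V p 0, h * (p 1 + x * V p 1)]} k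
      (h * ∑ i, ‖a i‖ ^ 2 / Real.sqrt (1 + (g i 0) ^ 2 + h ^ 2 * (g i 1) ^ 2)) := by
    refine ⟨fun i => (‖W i‖)⁻¹ • W i, fun i => prjN (W i) (lift h (c i)),
      fun i => prjN (W i) (lift h (a i)), fun i => prjN (W i) (lift h (b i)), ?_, ?_, ?_, ?_, ?_⟩
    · intro i
      rw [norm_smul, norm_inv, norm_norm, inv_mul_cancel₀ (hWpos i).ne']
    · intro i
      simp only [inner_smul_right, inner_prjN _ _ (hWne i), mul_zero, and_self]
    · intro i
      rw [← gram2_pos_iff, hgram]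
      have ha : 0 < ‖a i‖ := norm_pos_iff.mpr (hsq i).1
      positivity
    · rintro z ⟨p, hp, x, hx, rfl⟩
      have hmem : ((x, p + x • V p) : ℝ × EuclideanSpace ℝ (Fin 2)) ∈
          {z : ℝ × EuclideanSpace ℝ (Fin 2) | ∃ p ∈ D, abs z.1 ≤ M ∧ z.2 = p + z.1 • V p} :=
        ⟨p, hp, hx, rfl⟩
      obtain ⟨i, hi⟩ := Set.mem_iUnion.mp (hcov hmem)
      obtain ⟨x', hx', y', hy', hxy⟩ := hi
      simp only at hxy
      refine Set.mem_iUnion.mpr ⟨i, ?_⟩
      set Y : E3 := lift h (c i) + x' • lift h (a i) + y' • lift h (b i) with hY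
      have hz : (!₂[x, p 0 + x * V p 0, h * (p 1 + x * V p 1)] : E3) = Y + x • W i := by
        have h1 : (!₂[x, p 0 + x * V p 0, h * (p 1 + x * V p 1)] : E3)
            = lift h (p + x • V p) + x • e0 := by
          ext j
          fin_cases j <;> simp [lift, e0]
        rw [h1, hxy, lift_add, lift_add, lift_add, lift_smul, lift_smul, lift_smul, hY, hWdef]
        simp only [smul_add]
        abel
      refine ⟨prjN (W i) Y, ⟨x', hx', y', hy', ?_⟩,
        (inner ℝ Y (W i) / ‖W i‖ ^ 2 + x) * ‖W i‖, ?_⟩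
      · rw [hY, prjN_add, prjN_add, prjN_smul, prjN_smul]
      · rw [hz, smul_smul, mul_assoc, mul_inv_cancel₀ (hWpos i).ne', mul_one, add_smul]
        unfold prjN
        abel
    · rw [Finset.mul_sum]
      refine Finset.sum_le_sum fun i _ => ?_
      rw [area_pgram, hgram, ENNReal.toReal_ofReal (Real.sqrt_nonneg _), Real.sqrt_div (by positivity),
        Real.sqrt_sq (by positivity), mul_div_assoc]
  obtain ⟨u, B, hu, hB, hcovB, -, hsumB⟩ := hpar.toOpen (ε / 2) (by positivity)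
  refine ⟨k, u, B, hu, hB, hcovB, hsumB.trans ?_⟩
  have h1 : h * ∑ i, ‖a i‖ ^ 2 / Real.sqrt (1 + (g i 0) ^ 2 + h ^ 2 * (g i 1) ^ 2) ≤
      h * ((∫ p in D, 1 / Real.sqrt (1 + (V p 0) ^ 2 + h ^ 2 * (V p 1) ^ 2)) + ε / (2 * h)) :=
    mul_le_mul_of_nonneg_left hsum hh.le
  have h2 : h * (ε / (2 * h)) = ε / 2 := by field_simp
  rw [mul_add, h2] at h1
  linarith

end Crest.Agent.S0329
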